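import Mathlib

/-!
# Group-theoretic form of Fraenkel-Mostowski permutation models

A permutation model is given by a group `G` and a normal filter `F` of subgroups.  Sets of the
model supported by `H ∈ F` are the same as `H`-sets all of whose points have open stabilisers
(`Cont`).  This file contains the definitions and the consequences of PP on conjugacy of open
subgroups.
-/

open Cardinal

namespace Vale.Agent.Lib.P323

universe u

/-- A normal filter of subgroups of `G`. -/
structure NormalFilter (G : Type u) [Group G] where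
  carrier : Set (Subgroup G)
  top_mem : (⊤ : Subgroup G) ∈ carrier
  up_mem : ∀ {A B : Subgroup G}, A ∈ carrier → A ≤ B → B ∈ carrier
  inf_mem : ∀ {A B : Subgroup G}, A ∈ carrier → B ∈ carrier → A ⊓ B ∈ carrier
  conj_mem : ∀ {A : Subgroup G}, A ∈ carrier → ∀ g : G,
    A.map (MulAut.conj g).toMonoidHom ∈ carrier

variable {G : Type u} [Group G]

theorem mem_conj (A : Subgroup G) (g a : G) :
    a ∈ A.map (MulAut.conj g).toMonoidHom ↔ g⁻¹ * a * g ∈ A := by
  constructor
  · rintro ⟨x, hx, rfl⟩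
    have : g⁻¹ * ((MulAut.conj g).toMonoidHom x) * g = x := by
      simp [MulAut.conj_apply, mul_assoc]
    rwa [this]
  · intro h
    refine ⟨_, h, ?_⟩
    simp [MulAut.conj_apply, mul_assoc]

/-- Every point of the `H`-set `X` is fixed by a member of the filter: `X` is (isomorphic to)
a set of the permutation model with support `H`. -/
def Cont (F : NormalFilter G) (H : Subgroup G) (X : Type u) [MulAction H X] : Prop :=
  ∀ x : X, ∃ U ∈ F.carrier, ∀ h : H, (h : G) ∈ U → h • x = x

/-- The Partition Principle in the permutation model. -/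
def PP (F : NormalFilter G) : Prop :=
  ∀ H ∈ F.carrier, ∀ (X Y : Type u) [MulAction H X] [MulAction H Y],
    Cont F H X → Cont F H Y → ∀ f : X → Y, Function.Surjective f →
      (∀ (h : H) (x : X), f (h • x) = h • f x) →
      ∃ K ∈ F.carrier, K ≤ H ∧ ∃ j : Y → X, Function.Injective j ∧
        ∀ h : H, (h : G) ∈ K → ∀ y : Y, j (h • y) = h • j y

/-- Choice for well-orderable families in the permutation model. -/
def ACwo (F : NormalFilter G) : Prop :=
  ∀ H ∈ F.carrier, ∀ (I : Type u) (X : I → Type u) [∀ i, MulAction H (X i)],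
    (∀ i, Cont F H (X i)) → (∀ i, Nonempty (X i)) →
      ∃ K ∈ F.carrier, K ≤ H ∧ ∀ i, ∃ x : X i, ∀ h : H, (h : G) ∈ K → h • x = x

/-- The ordering principle in the permutation model: every set can be linearly ordered. -/
def OP (F : NormalFilter G) : Prop :=
  ∀ H ∈ F.carrier, ∀ (X : Type u) [MulAction H X], Cont F H X →
    ∃ K ∈ F.carrier, K ≤ H ∧ ∃ _ : LinearOrder X,
      ∀ h : H, (h : G) ∈ K → ∀ a b : X, a < b → h • a < h • b

/-- Every set of the permutation model is well-orderable there: an open subgroup acts trivially.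
This is AC in the permutation model. -/
def WO (F : NormalFilter G) : Prop :=
  ∀ H ∈ F.carrier, ∀ (X : Type u) [MulAction H X], Cont F H X →
    ∃ K ∈ F.carrier, K ≤ H ∧ ∀ h : H, (h : G) ∈ K → ∀ x : X, h • x = x

/-- The filter has a least member. -/
def Principal (F : NormalFilter G) : Prop :=
  ∃ K ∈ F.carrier, ∀ L ∈ F.carrier, K ≤ L

/-- Each member of the filter contains a member of the filter conjugate into all its open
subgroups. -/
def Universal (F : NormalFilter G) : Prop :=
  ∀ H ∈ F.carrier, ∃ W ∈ F.carrier, W ≤ H ∧ ∀ L ∈ F.carrier, L ≤ H →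
    ∃ g : H, ∀ w ∈ W, (g : G)⁻¹ * w * g ∈ L

/-- The action in which nothing moves. -/
@[reducible] def trivialAction (H : Type*) [Monoid H] (Y : Type*) : MulAction H Y where
  smul _ y := y
  one_smul _ := rfl
  mul_smul _ _ _ := rfl

/-- The action on a sigma of products which acts only on the second factor. -/
@[reducible] def taggedAction (H : Type*) [Monoid H] {I : Type*} (T Q : I → Type*)
    [∀ i, MulAction H (Q i)] : MulAction H (Σ i, T i × Q i) where
  smul h x := ⟨x.1, x.2.1, h • x.2.2⟩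
  one_smul x := by
    rcases x with ⟨i, t, q⟩
    show (⟨i, t, (1 : H) • q⟩ : Σ i, T i × Q i) = ⟨i, t, q⟩
    rw [one_smul]
  mul_smul a b x := by
    rcases x with ⟨i, t, q⟩
    show (⟨i, t, (a * b) • q⟩ : Σ i, T i × Q i) = ⟨i, t, a • b • q⟩
    rw [mul_smul]

/-- The coset space `H / (B ∩ H)`. -/
abbrev Coset (H B : Subgroup G) : Type u := H ⧸ B.subgroupOf H

theorem coset_smul_fixed_iff (H B : Subgroup G) (g h : H) :
    h • (QuotientGroup.mk g : Coset H B) = QuotientGroup.mk g ↔ (g : G)⁻¹ * h * g ∈ B := by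
  rw [MulAction.Quotient.smul_mk, smul_eq_mul, QuotientGroup.eq, Subgroup.mem_subgroupOf]
  have e : (((h * g)⁻¹ * g : H) : G) = ((g : G)⁻¹ * h * g)⁻¹ := by
    simp [mul_assoc]
  rw [e, inv_mem_iff]

theorem coset_cont (F : NormalFilter G) (H B : Subgroup G) (hB : B ∈ F.carrier) :
    Cont F H (Coset H B) := by
  intro q
  induction q using QuotientGroup.induction_on with
  | H g =>
    refine ⟨B.map (MulAut.conj (g : G)).toMonoidHom, F.conj_mem hB _, fun h hh => ?_⟩
    exact (coset_smul_fixed_iff H B g h).2 ((mem_conj _ _ _).1 hh)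

section weight

variable {I : Type u} [LT I] [WellFoundedLT I]

/-- Weights chosen so that each exceeds the total size of all earlier pieces. -/
noncomputable def weight (c : I → Cardinal.{u}) : I → Cardinal.{u} :=
  (wellFounded_lt (α := I)).fix fun i ih =>
    Order.succ (Cardinal.sum fun p : {j // j < i} => ih p.1 p.2 * c p.1)

theorem weight_eq (c : I → Cardinal.{u}) (i : I) :
    weight c i = Order.succ (Cardinal.sum fun p : {j // j < i} => weight c p.1 * c p.1) := by
  unfold weight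
  rw [WellFounded.fix_eq]

end weight

/-- The cofinal lemma: PP gives a member of the filter which is conjugate into cofinally many
members of any well-ordered family. -/
theorem cofinal {F : NormalFilter G} (hPP : PP F) {H : Subgroup G} (hH : H ∈ F.carrier)
    {I : Type u} [LinearOrder I] [WellFoundedLT I] (B : I → Subgroup G)
    (hB : ∀ i, B i ∈ F.carrier) :
    ∃ R ∈ F.carrier, R ≤ H ∧ ∀ i, ∃ i', i ≤ i' ∧ ∃ g : H, ∀ r ∈ R, (g : G)⁻¹ * r * g ∈ B i' := by
  classical
  let Q : I → Type u := fun i => Coset H (B i)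
  let c : I → Cardinal.{u} := fun i => #(Q i)
  let w := weight c
  let T : I → Type u := fun i => (w i).out
  let instX : MulAction H (Σ i, T i × Q i) := taggedAction H T Q
  let instY : MulAction H (Σ i, T i) := trivialAction H _
  let f : (Σ i, T i × Q i) → (Σ i, T i) := fun x => ⟨x.1, x.2.1⟩
  have hf : Function.Surjective f := by
    rintro ⟨i, t⟩
    exact ⟨⟨i, t, (QuotientGroup.mk 1 : Q i)⟩, rfl⟩
  have hcX : Cont F H (Σ i, T i × Q i) := by
    rintro ⟨i, t, q⟩
    obtain ⟨U, hU, hfix⟩ := coset_cont F H (B i) (hB i) q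
    refine ⟨U, hU, fun h hh => ?_⟩
    show (⟨i, t, h • q⟩ : Σ i, T i × Q i) = ⟨i, t, q⟩
    rw [hfix h hh]
  have hcY : Cont F H (Σ i, T i) := fun y => ⟨⊤, F.top_mem, fun _ _ => rfl⟩
  obtain ⟨R, hR, hRH, j, hj, hjeq⟩ := hPP H hH _ _ hcX hcY f hf (fun _ _ => rfl)
  refine ⟨R, hR, hRH, fun i => ?_⟩
  by_contra hcon
  -- every element over `i` is sent to a smaller label
  have hlab : ∀ t : T i, (j ⟨i, t⟩).1 < i := by
    intro t
    by_contra hge
    rw [not_lt] at hge
    apply hcon
    rcases hq : j ⟨i, t⟩ with ⟨i', t', q⟩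
    rw [hq] at hge
    induction q using QuotientGroup.induction_on with
    | H g =>
      refine ⟨i', hge, g, fun r hr => ?_⟩
      have h1 := hjeq ⟨r, hRH hr⟩ hr ⟨i, t⟩
      have h2 : ((⟨r, hRH hr⟩ : H) • (⟨i, t⟩ : Σ i, T i)) = ⟨i, t⟩ := rfl
      rw [h2, hq] at h1
      have h3 : (⟨r, hRH hr⟩ : H) • (⟨i', t', (QuotientGroup.mk g : Q i')⟩ : Σ i, T i × Q i)
          = ⟨i', t', (⟨r, hRH hr⟩ : H) • (QuotientGroup.mk g : Q i')⟩ := rfl
      rw [h3] at h1
      have h4 : (⟨r, hRH hr⟩ : H) • (QuotientGroup.mk g : Q i') = QuotientGroup.mk g := by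
        have := congrArg (fun x : (Σ i, T i × Q i) => x) h1
        simpa using h1.symm
      exact (coset_smul_fixed_iff H (B i') g ⟨r, hRH hr⟩).1 h4
  -- cardinality contradiction
  let φ : T i → Σ p : {k // k < i}, T p.1 × Q p.1 := fun t =>
    ⟨⟨(j ⟨i, t⟩).1, hlab t⟩, (j ⟨i, t⟩).2⟩
  have hφ : Function.Injective φ := by
    intro t t' h
    have h1 : j ⟨i, t⟩ = j ⟨i, t'⟩ := by
      have h2 := congrArg (fun x : (Σ p : {k // k < i}, T p.1 × Q p.1) =>
        (⟨x.1.1, x.2⟩ : Σ i, T i × Q i)) h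
      exact h2
    have h3 := hj h1
    simpa using h3
  have hle := Cardinal.mk_le_of_injective hφ
  have hT : #(T i) = w i := Cardinal.mk_out _
  have hS : #(Σ p : {k // k < i}, T p.1 × Q p.1)
      = Cardinal.sum fun p : {k // k < i} => w p.1 * c p.1 := by
    rw [Cardinal.mk_sigma]
    congr 1
    funext p
    rw [Cardinal.mk_prod, Cardinal.lift_id, Cardinal.lift_id]
    rw [Cardinal.mk_out]
  rw [hT, hS] at hle
  have hw : w i = Order.succ (Cardinal.sum fun p : {k // k < i} => w p.1 * c p.1) := weight_eq c i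
  rw [hw] at hle
  exact absurd hle (not_le.2 (Order.lt_succ _))

/-- `A` is conjugate in `H` into `B`. -/
def SubConj (H A B : Subgroup G) : Prop := ∃ g : H, ∀ a ∈ A, (g : G)⁻¹ * a * g ∈ B

theorem SubConj.trans {H A B C : Subgroup G} (h1 : SubConj H A B) (h2 : SubConj H B C) :
    SubConj H A C := by
  obtain ⟨g₁, h₁⟩ := h1
  obtain ⟨g₂, h₂⟩ := h2
  refine ⟨g₁ * g₂, fun a ha => ?_⟩
  have := h₂ _ (h₁ a ha)
  have e : (((g₁ * g₂ : H) : G))⁻¹ * a * ((g₁ * g₂ : H) : G)
      = (g₂ : G)⁻¹ * ((g₁ : G)⁻¹ * a * g₁) * g₂ := by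
    simp [mul_assoc]
  rw [e]
  exact this

theorem SubConj.mono {H A A' B : Subgroup G} (hA : A' ≤ A) (h : SubConj H A B) :
    SubConj H A' B := by
  obtain ⟨g, hg⟩ := h
  exact ⟨g, fun a ha => hg a (hA ha)⟩

theorem SubConj.of_le {H A B : Subgroup G} (h : A ≤ B) : SubConj H A B :=
  ⟨1, fun a ha => by simpa using h ha⟩

/-- The members of the filter below `H`, as a bare index type. -/
def OpenBelow (F : NormalFilter G) (H : Subgroup G) : Type u :=
  {L : Subgroup G // L ∈ F.carrier ∧ L ≤ H}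

/-- PP gives universal members of the filter. -/
theorem universal_of_PP {F : NormalFilter G} (hPP : PP F) : Universal F := by
  classical
  intro H hH
  obtain ⟨lo, wf⟩ := exists_wellFoundedLT (OpenBelow F H)
  have step : ∀ ξ : OpenBelow F H, ∃ R ∈ F.carrier, R ≤ H ∧
      ∀ ζ : OpenBelow F H, ζ ≤ ξ → SubConj H R ζ.1 := by
    intro ξ
    refine WellFoundedLT.induction (motive := fun ξ => ∃ R ∈ F.carrier, R ≤ H ∧
      ∀ ζ : OpenBelow F H, ζ ≤ ξ → SubConj H R ζ.1) ξ ?_
    intro ξ ih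
    choose! Rf hRf hRfH hRfS using ih
    obtain ⟨R', hR', hR'H, hcof⟩ := cofinal hPP hH (I := {ζ : OpenBelow F H // ζ < ξ})
      (fun p => Rf p.1) (fun p => hRf p.1 p.2)
    refine ⟨R' ⊓ ξ.1, F.inf_mem hR' ξ.2.1, inf_le_left.trans hR'H, fun ζ hζ => ?_⟩
    rcases eq_or_lt_of_le hζ with rfl | hlt
    · exact SubConj.of_le inf_le_right
    · obtain ⟨i', hi', g, hg⟩ := hcof ⟨ζ, hlt⟩
      have h1 : SubConj H R' (Rf i'.1) := ⟨g, hg⟩
      have h2 : SubConj H (Rf i'.1) ζ.1 := hRfS i'.1 i'.2 ζ hi'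
      exact SubConj.mono inf_le_left (h1.trans h2)
  choose Rf hRf hRfH hRfS using step
  obtain ⟨W, hW, hWH, hcof⟩ := cofinal hPP hH (I := OpenBelow F H) Rf hRf
  refine ⟨W, hW, hWH, fun L hL hLH => ?_⟩
  obtain ⟨i', hi', g, hg⟩ := hcof ⟨L, hL, hLH⟩
  have h1 : SubConj H W (Rf i') := ⟨g, hg⟩
  exact h1.trans (hRfS i' ⟨L, hL, hLH⟩ hi')

/-- Choice for well-ordered families is equivalent to the existence of universal subgroups. -/
theorem universal_of_ACwo {F : NormalFilter G} (h : ACwo F) : Universal F := by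
  classical
  intro H hH
  obtain ⟨K, hK, hKH, hc⟩ := h H hH (OpenBelow F H) (fun L => Coset H L.1)
    (fun L => coset_cont F H L.1 L.2.1) (fun L => ⟨QuotientGroup.mk 1⟩)
  refine ⟨K, hK, hKH, fun L hL hLH => ?_⟩
  obtain ⟨q, hq⟩ := hc ⟨L, hL, hLH⟩
  induction q using QuotientGroup.induction_on with
  | H g =>
    exact ⟨g, fun w hw => (coset_smul_fixed_iff H L g ⟨w, hKH hw⟩).1 (hq ⟨w, hKH hw⟩ hw)⟩

theorem ACwo_of_universal {F : NormalFilter G} (h : Universal F) : ACwo F := by
  classical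
  intro H hH I X _ hc hne
  obtain ⟨W, hW, hWH, hu⟩ := h H hH
  refine ⟨W, hW, hWH, fun i => ?_⟩
  obtain ⟨x₀⟩ := hne i
  obtain ⟨U, hU, hfix⟩ := hc i x₀
  obtain ⟨g, hg⟩ := hu (U ⊓ H) (F.inf_mem hU hH) inf_le_right
  refine ⟨g • x₀, fun k hk => ?_⟩
  have h1 : ((g⁻¹ * k * g : H) : G) ∈ U := by
    have := hg k hk
    simpa using (Subgroup.mem_inf.1 this).1
  have h2 := hfix _ h1
  calc k • g • x₀ = g • (g⁻¹ * k * g) • x₀ := by
        simp only [smul_smul]; congr 1; group
    _ = g • x₀ := by rw [h2]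

end Vale.Agent.Lib.P323
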