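import Vale.Agent.Lib.P323.Core

/-!
# Choice for `n`-element sets and the equivalences with AC in permutation models
-/

namespace Vale.Agent.Lib.P323

universe u

variable {G : Type u} [Group G]

/-- Choice for families of `n`-element sets in the permutation model: the `n`-element subsets
of every set of the model have a choice function in the model. -/
def Cn (F : NormalFilter G) (n : ℕ) : Prop :=
  ∀ H ∈ F.carrier, ∀ (Y : Type u) [MulAction H Y] [Nonempty Y], Cont F H Y →
    ∃ K ∈ F.carrier, K ≤ H ∧ ∃ c : Set Y → Y, (∀ s : Set Y, s.ncard = n → c s ∈ s) ∧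
      ∀ h : H, (h : G) ∈ K → ∀ s : Set Y, s.ncard = n → c ((fun y => h • y) '' s) = h • c s

/-- Linear orders give choice for `n`-element sets, `n ≥ 1`. -/
theorem Cn_of_OP {F : NormalFilter G} (h : OP F) (n : ℕ) (hn : 1 ≤ n) : Cn F n := by
  classical
  intro H hH Y _ _ hc
  obtain ⟨K, hK, hKH, lo, hmono⟩ := h H hH Y hc
  have hleast : ∀ s : Set Y, s.ncard = n → ∃ m, IsLeast s m := by
    intro s hs
    have hfin : s.Finite := Set.finite_of_ncard_pos (by omega)
    have hne : s.Nonempty := (Set.ncard_pos hfin).1 (by omega)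
    obtain ⟨m, hm, hle⟩ := Set.exists_min_image s id hfin hne
    exact ⟨m, hm, fun b hb => hle b hb⟩
  let c : Set Y → Y := fun s =>
    if hs : ∃ m, IsLeast s m then hs.choose else Classical.arbitrary Y
  have hcl : ∀ s : Set Y, s.ncard = n → IsLeast s (c s) := by
    intro s hs
    have h1 := hleast s hs
    simp only [c, dif_pos h1]
    exact h1.choose_spec
  refine ⟨K, hK, hKH, c, fun s hs => (hcl s hs).1, fun k hk s hs => ?_⟩
  have hs' : ((fun y => k • y) '' s).ncard = n := by
    rw [Set.ncard_image_of_injective _ (MulAction.injective k)]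
    exact hs
  refine (hcl _ hs').unique ⟨⟨c s, (hcl s hs).1, rfl⟩, ?_⟩
  rintro _ ⟨a, ha, rfl⟩
  rcases ((hcl s hs).2 ha).lt_or_eq with h1 | h1
  · exact (hmono k hk _ _ h1).le
  · rw [h1]

/-- **Universality (equivalently AC_wo) with choice for `n`-element sets gives AC.** -/
theorem WO_of_universal_Cn {F : NormalFilter G} (hU : Universal F) (n : ℕ) (hn : 2 ≤ n)
    (hC : Cn F n) : WO F := by
  intro H hH Ω _ hc
  by_contra hcon
  have hne : ∀ K ∈ F.carrier, K ≤ H → ∃ k : H, (k : G) ∈ K ∧ ∃ ω : Ω, k • ω ≠ ω := by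
    intro K hK hKH
    by_contra hno
    apply hcon
    refine ⟨K, hK, hKH, fun h hh ω => ?_⟩
    by_contra hω
    exact hno ⟨h, hh, ω, hω⟩
  obtain ⟨_, _, y0, _⟩ := exists_cycle hU hH Ω hc hne n H hH le_rfl
  have : Nonempty (SeqQuot F H Ω n) := ⟨y0⟩
  obtain ⟨K, hK, hKH, c, hcm, hceq⟩ := hC H hH (SeqQuot F H Ω n) (seqQuot_cont F H Ω n)
  obtain ⟨h, hh, y, hy1, hy2⟩ := exists_cycle hU hH Ω hc hne n K hK hKH
  let φ : ℕ → SeqQuot F H Ω n := fun k => h ^ k • y
  let s : Set (SeqQuot F H Ω n) := φ '' (↑(Finset.range n) : Set ℕ)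
  have hinj : Set.InjOn φ (↑(Finset.range n) : Set ℕ) := by
    have key : ∀ a d : ℕ, a + d + 1 < n → φ a ≠ φ (a + d + 1) := by
      intro a d hlt he
      apply hy2 (d + 1) (Nat.succ_pos _) (by omega)
      have e : φ (a + d + 1) = h ^ a • (h ^ (d + 1) • y) := by
        show h ^ (a + d + 1) • y = _
        rw [smul_smul, ← pow_add]
        rfl
      have h2 : h ^ a • (h ^ (d + 1) • y) = h ^ a • y := by
        rw [← e]; exact he.symm
      exact MulAction.injective (h ^ a) h2
    intro a ha b hb hab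
    have ha' : a < n := by simpa using ha
    have hb' : b < n := by simpa using hb
    rcases Nat.lt_trichotomy a b with hl | hl | hl
    · obtain ⟨d, rfl⟩ := Nat.exists_eq_add_of_lt hl
      exact absurd hab (key a d hb')
    · exact hl
    · obtain ⟨d, rfl⟩ := Nat.exists_eq_add_of_lt hl
      exact absurd hab.symm (key b d ha')
  have hcard : s.ncard = n := by
    rw [Set.InjOn.ncard_image hinj, Set.ncard_coe_finset, Finset.card_range]
  have hsucc : ∀ k : ℕ, h • φ k = φ (k + 1) := by
    intro k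
    show h • h ^ k • y = h ^ (k + 1) • y
    rw [smul_smul, pow_succ']
  have himg : (fun y => h • y) '' s = s := by
    ext x
    constructor
    · rintro ⟨_, ⟨k, hk, rfl⟩, rfl⟩
      have hk' : k < n := by simpa using hk
      show h • φ k ∈ s
      rw [hsucc]
      rcases Nat.lt_or_ge (k + 1) n with hl | hl
      · exact ⟨k + 1, by simpa using hl, rfl⟩
      · have e : k + 1 = n := by omega
        rw [e]
        refine ⟨0, by simp; omega, ?_⟩
        show h ^ 0 • y = h ^ n • y
        rw [hy1, pow_zero, one_smul]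
    · rintro ⟨k, hk, rfl⟩
      have hk' : k < n := by simpa using hk
      rcases k with _ | k
      · refine ⟨φ (n - 1), ⟨n - 1, by simp; omega, rfl⟩, ?_⟩
        show h • φ (n - 1) = φ 0
        rw [hsucc]
        have e : n - 1 + 1 = n := by omega
        rw [e]
        show h ^ n • y = h ^ 0 • y
        rw [hy1, pow_zero, one_smul]
      · refine ⟨φ k, ⟨k, by simp; omega, rfl⟩, hsucc k⟩
  obtain ⟨i, _, hci⟩ := hcm s hcard
  have hfix : h • c s = c s := by
    rw [← hceq h hh s hcard, himg]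
  rw [← hci] at hfix
  apply hy2 1 Nat.one_pos (by omega)
  rw [pow_one]
  have h3 : h ^ i • (h • y) = h ^ i • y := by
    have e : h ^ i • (h • y) = h • φ i := by
      show _ = h • h ^ i • y
      rw [smul_smul, smul_smul, pow_mul_comm']
    rw [e, hfix]
  exact MulAction.injective (h ^ i) h3

/-- A least member of the filter acts trivially on every continuous set. -/
theorem principal_trivial {F : NormalFilter G} {K : Subgroup G} (hK : ∀ L ∈ F.carrier, K ≤ L)
    {H : Subgroup G} {X : Type u} [MulAction H X] (hc : Cont F H X) (h : H) (hh : (h : G) ∈ K)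
    (x : X) : h • x = x := by
  obtain ⟨U, hU, hfix⟩ := hc x
  exact hfix h (hK U hU hh)

theorem PP_of_principal {F : NormalFilter G} (h : Principal F) : PP F := by
  obtain ⟨K, hK, hKl⟩ := h
  intro H hH X Y _ _ hcX hcY f hf _
  refine ⟨K, hK, hKl H hH, Function.surjInv hf, Function.injective_surjInv hf, ?_⟩
  intro k hk y
  rw [principal_trivial hKl hcY k hk, principal_trivial hKl hcX k hk]

theorem OP_of_principal {F : NormalFilter G} (h : Principal F) : OP F := by
  obtain ⟨K, hK, hKl⟩ := h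
  intro H hH X _ hc
  obtain ⟨lo, _⟩ := exists_wellFoundedLT X
  refine ⟨K, hK, hKl H hH, lo, fun k hk a b hab => ?_⟩
  rwa [principal_trivial hKl hc k hk, principal_trivial hKl hc k hk]

theorem ACwo_of_principal {F : NormalFilter G} (h : Principal F) : ACwo F := by
  obtain ⟨K, hK, hKl⟩ := h
  intro H hH I X _ hc hne
  refine ⟨K, hK, hKl H hH, fun i => ?_⟩
  obtain ⟨x⟩ := hne i
  exact ⟨x, fun k hk => principal_trivial hKl (hc i) k hk x⟩

theorem WO_of_principal {F : NormalFilter G} (h : Principal F) : WO F := by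
  obtain ⟨K, hK, hKl⟩ := h
  intro H hH X _ hc
  exact ⟨K, hK, hKl H hH, fun k hk x => principal_trivial hKl hc k hk x⟩

theorem principal_of_WO {F : NormalFilter G} (h : WO F) : Principal F := by
  classical
  have hT : (⊤ : Subgroup G) ∈ F.carrier := F.top_mem
  have hc : Cont F ⊤ (Σ L : OpenBelow F ⊤, Coset ⊤ L.1) := by
    rintro ⟨L, q⟩
    obtain ⟨U, hU, hfix⟩ := coset_cont F ⊤ L.1 L.2.1 q
    refine ⟨U, hU, fun k hk => ?_⟩
    rw [Sigma.smul_mk, hfix k hk]
  obtain ⟨K, hK, _, htriv⟩ := h ⊤ hT _ hc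
  refine ⟨K, hK, fun L hL k hk => ?_⟩
  have h1 := htriv ⟨k, Subgroup.mem_top k⟩ hk
    ⟨⟨L, hL, le_top⟩, (QuotientGroup.mk 1 : Coset ⊤ L)⟩
  have h2 : (⟨k, Subgroup.mem_top k⟩ : (⊤ : Subgroup G)) • (QuotientGroup.mk 1 : Coset ⊤ L)
      = QuotientGroup.mk 1 :=
    @sigma_mk_injective _ (fun L : OpenBelow F ⊤ => Coset ⊤ L.1) ⟨L, hL, le_top⟩ _ _ h1
  have h3 := (coset_smul_fixed_iff ⊤ L 1 ⟨k, Subgroup.mem_top k⟩).1 h2
  simpa using h3

/-- A necessary condition on the open subgroups: over a small open subgroup every open subgroup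
`B` looks like a conjugate of every smaller open subgroup `A`. -/
theorem trace_of_PP {F : NormalFilter G} (hPP : PP F) {H A B : Subgroup G} (hH : H ∈ F.carrier)
    (hA : A ∈ F.carrier) (hB : B ∈ F.carrier) (hAB : A ≤ B) :
    ∃ R ∈ F.carrier, R ≤ H ∧ ∃ g : H, ∀ r ∈ R, r ∈ B ↔ (g : G)⁻¹ * r * g ∈ A := by
  have hle : A.subgroupOf H ≤ B.subgroupOf H := Subgroup.subgroupOf_mono H hAB
  let f : Coset H A → Coset H B := Subgroup.quotientMapOfLE hle
  have hf : Function.Surjective f := by
    intro q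
    induction q using QuotientGroup.induction_on with
    | H g => exact ⟨QuotientGroup.mk g, rfl⟩
  have hfeq : ∀ (h : H) (x : Coset H A), f (h • x) = h • f x := by
    intro h x
    induction x using QuotientGroup.induction_on with
    | H g => rfl
  obtain ⟨R, hR, hRH, j, hj, hjeq⟩ := hPP H hH _ _ (coset_cont F H A hA) (coset_cont F H B hB)
    f hf hfeq
  obtain ⟨g, hg'⟩ := QuotientGroup.mk_surjective (j (QuotientGroup.mk 1))
  have hg : j (QuotientGroup.mk 1) = QuotientGroup.mk g := hg'.symm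
  refine ⟨R, hR, hRH, g, fun r hr => ?_⟩
  let rH : H := ⟨r, hRH hr⟩
  have e0 : ((1 : H) : G)⁻¹ * (rH : G) * ((1 : H) : G) = r := by simp [rH]
  have e1 : r ∈ B ↔ rH • (QuotientGroup.mk 1 : Coset H B) = QuotientGroup.mk 1 := by
    rw [coset_smul_fixed_iff, e0]
  have e2 : (g : G)⁻¹ * r * g ∈ A ↔ rH • (QuotientGroup.mk g : Coset H A) = QuotientGroup.mk g :=
    (coset_smul_fixed_iff H A g rH).symm
  rw [e1, e2, ← hg, ← hjeq rH hr]
  exact ⟨fun h => by rw [h], fun h => hj h⟩

/-- A product on which a group acts through the first factor only. -/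
def TagProd (A B : Type u) : Type u := A × B

instance tagProdAction {H : Type u} [Monoid H] (A B : Type u) [MulAction H A] :
    MulAction H (TagProd A B) where
  smul h p := (h • p.1, p.2)
  one_smul _ := Prod.ext (one_smul _ _) rfl
  mul_smul _ _ _ := Prod.ext (mul_smul _ _ _) rfl

/-- Under PP every set of the model injects into `S × T` with `S = H / W` a single orbit and `T`
pure. -/
theorem svc_of_PP {F : NormalFilter G} (hPP : PP F) {H W : Subgroup G} (hH : H ∈ F.carrier)
    (hW : W ∈ F.carrier)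
    (hWu : ∀ L ∈ F.carrier, L ≤ H → ∃ g : H, ∀ w ∈ W, (g : G)⁻¹ * w * g ∈ L)
    (X : Type u) [MulAction H X] (hc : Cont F H X) :
    ∃ K ∈ F.carrier, K ≤ H ∧ ∃ j : X → Coset H W × X, Function.Injective j ∧
      ∀ h : H, (h : G) ∈ K → ∀ x : X, j (h • x) = (h • (j x).1, (j x).2) := by
  classical
  -- each point has a translate fixed by `W`
  have hfixW : ∀ x : X, ∃ g : H, ∀ w : H, (w : G) ∈ W → w • (g • x) = g • x := by
    intro x
    obtain ⟨U, hU, hfix⟩ := hc x
    obtain ⟨g, hg⟩ := hWu (U ⊓ H) (F.inf_mem hU hH) inf_le_right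
    refine ⟨g, fun w hw => ?_⟩
    have h1 : ((g⁻¹ * w * g : H) : G) ∈ U := by
      have := hg w hw
      simpa using (Subgroup.mem_inf.1 this).1
    have h2 := hfix _ h1
    calc w • g • x = g • (g⁻¹ * w * g) • x := by
          simp only [smul_smul]; congr 1; group
      _ = g • x := by rw [h2]
  choose γ hγ using hfixW
  have hsm : ∀ (h : H) (p : TagProd (Coset H W) X), h • p = (h • p.1, p.2) := fun _ _ => rfl
  -- the map to `X`
  have hwd : ∀ x : X, ∀ a b : H, (QuotientGroup.leftRel (W.subgroupOf H)) a b →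
      a • (γ x • x) = b • (γ x • x) := by
    intro x a b hab
    have h1 : a⁻¹ * b ∈ W.subgroupOf H := QuotientGroup.leftRel_apply.1 hab
    have h2 := hγ x (a⁻¹ * b) (Subgroup.mem_subgroupOf.1 h1)
    calc a • (γ x • x) = a • (a⁻¹ * b) • (γ x • x) := by rw [h2]
      _ = b • (γ x • x) := by
        rw [smul_smul]; congr 1; group
  let f : TagProd (Coset H W) X → X := fun p =>
    Quotient.liftOn' p.1 (fun a : H => a • (γ p.2 • p.2)) (hwd p.2)
  have hfmk : ∀ (a : H) (x : X), f (QuotientGroup.mk a, x) = a • (γ x • x) := fun _ _ => rfl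
  have hf : Function.Surjective f := by
    intro x
    refine ⟨(QuotientGroup.mk (γ x)⁻¹, x), ?_⟩
    rw [hfmk, inv_smul_smul]
  have hfeq : ∀ (h : H) (p : TagProd (Coset H W) X), f (h • p) = h • f p := by
    rintro h ⟨q, x⟩
    induction q using QuotientGroup.induction_on with
    | H a =>
      show f (h • (QuotientGroup.mk a : Coset H W), x) = h • f (QuotientGroup.mk a, x)
      rw [MulAction.Quotient.smul_mk, smul_eq_mul, hfmk, hfmk, mul_smul]
  have hcP : Cont F H (TagProd (Coset H W) X) := by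
    rintro ⟨q, x⟩
    obtain ⟨U, hU, hfix⟩ := coset_cont F H W hW q
    refine ⟨U, hU, fun h hh => ?_⟩
    exact Prod.ext (hfix h hh) rfl
  obtain ⟨K, hK, hKH, j, hj, hjeq⟩ := hPP H hH _ _ hcP hc f hf hfeq
  exact ⟨K, hK, hKH, j, hj, fun h hh x => by rw [hjeq h hh x, hsm]⟩

end Vale.Agent.Lib.P323
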