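import Vale.Agent.Lib.P323.Basic

/-!
# The shift argument

If there are universal subgroups and the continuous `H`-set `Ω` is not acted on trivially by an
open subgroup, then every open subgroup contains an element acting as a shift on a sequence of
points of `Ω`.  Hence on sequences modulo `n`-parity tail equivalence it has an `n`-cycle.
-/

namespace Vale.Agent.Lib.P323

universe u

variable {G : Type u} [Group G]

/-- Sequences with a common open stabiliser: the sequences in `Ω` which lie in the model. -/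
def SeqSet (F : NormalFilter G) (H : Subgroup G) (Ω : Type u) [MulAction H Ω] : Type u :=
  {t : ℕ → Ω // ∃ U ∈ F.carrier, ∀ h : H, (h : G) ∈ U → ∀ n, h • t n = t n}

instance seqAction (F : NormalFilter G) (H : Subgroup G) (Ω : Type u) [MulAction H Ω] :
    MulAction H (SeqSet F H Ω) where
  smul h t := ⟨fun n => h • t.1 n, by
    obtain ⟨U, hU, hfix⟩ := t.2
    refine ⟨U.map (MulAut.conj (h : G)).toMonoidHom, F.conj_mem hU _, fun k hk n => ?_⟩
    have h1 : ((h⁻¹ * k * h : H) : G) ∈ U := by
      have := (mem_conj U (h : G) (k : G)).1 hk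
      simpa using this
    have h2 := hfix _ h1 n
    calc k • h • t.1 n = h • (h⁻¹ * k * h) • t.1 n := by
          simp only [smul_smul]; congr 1; group
      _ = h • t.1 n := by rw [h2]⟩
  one_smul t := Subtype.ext (funext fun n => one_smul _ _)
  mul_smul a b t := Subtype.ext (funext fun n => mul_smul _ _ _)

theorem seq_smul_apply (F : NormalFilter G) (H : Subgroup G) (Ω : Type u) [MulAction H Ω]
    (h : H) (t : SeqSet F H Ω) (n : ℕ) : (h • t).1 n = h • t.1 n := rfl

theorem seq_cont (F : NormalFilter G) (H : Subgroup G) (Ω : Type u) [MulAction H Ω] :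
    Cont F H (SeqSet F H Ω) := by
  intro t
  obtain ⟨U, hU, hfix⟩ := t.2
  exact ⟨U, hU, fun h hh => Subtype.ext (funext fun n => hfix h hh n)⟩

/-- Tail equivalence with offsets congruent modulo `n`. -/
def seqSetoid (F : NormalFilter G) (H : Subgroup G) (Ω : Type u) [MulAction H Ω] (n : ℕ) :
    Setoid (SeqSet F H Ω) where
  r t t' := ∃ a b : ℕ, a ≡ b [MOD n] ∧ ∀ i, t.1 (a + i) = t'.1 (b + i)
  iseqv :=
    { refl := fun _ => ⟨0, 0, Nat.ModEq.refl _, fun _ => rfl⟩
      symm := fun ⟨a, b, hab, h⟩ => ⟨b, a, hab.symm, fun i => (h i).symm⟩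
      trans := by
        rintro x y z ⟨a, b, hab, h⟩ ⟨c, d, hcd, h'⟩
        refine ⟨a + c, d + b, (hab.add hcd).trans (by rw [Nat.add_comm]), fun i => ?_⟩
        have h1 := h (c + i)
        have h2 := h' (b + i)
        have e1 : a + (c + i) = a + c + i := by ring
        have e2 : b + (c + i) = c + (b + i) := by ring
        have e3 : d + (b + i) = d + b + i := by ring
        rw [e1, e2] at h1
        rw [e3] at h2
        exact h1.trans h2 }

/-- Sequences modulo the tail equivalence. -/
def SeqQuot (F : NormalFilter G) (H : Subgroup G) (Ω : Type u) [MulAction H Ω] (n : ℕ) : Type u :=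
  Quotient (seqSetoid F H Ω n)

/-- The quotient map. -/
def seqMk (F : NormalFilter G) (H : Subgroup G) (Ω : Type u) [MulAction H Ω] (n : ℕ)
    (t : SeqSet F H Ω) : SeqQuot F H Ω n := Quotient.mk (seqSetoid F H Ω n) t

theorem seq_smul_compat (F : NormalFilter G) (H : Subgroup G) (Ω : Type u) [MulAction H Ω] (n : ℕ)
    (h : H) {t t' : SeqSet F H Ω} (hr : (seqSetoid F H Ω n).r t t') :
    (seqSetoid F H Ω n).r (h • t) (h • t') := by
  obtain ⟨a, b, hab, hi⟩ := hr
  exact ⟨a, b, hab, fun i => congrArg (fun x => h • x) (hi i)⟩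

instance seqQuotAction (F : NormalFilter G) (H : Subgroup G) (Ω : Type u) [MulAction H Ω] (n : ℕ) :
    MulAction H (SeqQuot F H Ω n) where
  smul h := Quotient.map (sa := seqSetoid F H Ω n) (sb := seqSetoid F H Ω n) (fun t => h • t)
    (fun _ _ hr => seq_smul_compat F H Ω n h hr)
  one_smul y := by
    refine Quotient.inductionOn y fun t => ?_
    exact congrArg (Quotient.mk (seqSetoid F H Ω n)) (one_smul H t)
  mul_smul a b y := by
    refine Quotient.inductionOn y fun t => ?_
    exact congrArg (Quotient.mk (seqSetoid F H Ω n)) (mul_smul a b t)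

theorem seqMk_smul (F : NormalFilter G) (H : Subgroup G) (Ω : Type u) [MulAction H Ω] (n : ℕ)
    (h : H) (t : SeqSet F H Ω) : seqMk F H Ω n (h • t) = h • seqMk F H Ω n t := rfl

theorem seqMk_surjective (F : NormalFilter G) (H : Subgroup G) (Ω : Type u) [MulAction H Ω]
    (n : ℕ) : Function.Surjective (seqMk F H Ω n) := Quotient.mk_surjective

theorem seqQuot_cont (F : NormalFilter G) (H : Subgroup G) (Ω : Type u) [MulAction H Ω] (n : ℕ) :
    Cont F H (SeqQuot F H Ω n) := by
  intro y
  obtain ⟨t, rfl⟩ := seqMk_surjective F H Ω n y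
  obtain ⟨U, hU, hfix⟩ := seq_cont F H Ω t
  refine ⟨U, hU, fun h hh => ?_⟩
  rw [← seqMk_smul, hfix h hh]

/-- The main step: under universality, if no open subgroup acts trivially on `Ω`, every open
subgroup contains an element with an `n`-cycle on the sequences modulo tail equivalence. -/
theorem exists_cycle {F : NormalFilter G} (hU : Universal F) {H : Subgroup G}
    (hH : H ∈ F.carrier) (Ω : Type u) [MulAction H Ω] (hc : Cont F H Ω)
    (hne : ∀ K ∈ F.carrier, K ≤ H → ∃ k : H, (k : G) ∈ K ∧ ∃ ω : Ω, k • ω ≠ ω)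
    (n : ℕ) (R : Subgroup G) (hR : R ∈ F.carrier) (hRH : R ≤ H) :
    ∃ h : H, (h : G) ∈ R ∧ ∃ y : SeqQuot F H Ω n, h ^ n • y = y ∧
      ∀ k : ℕ, 0 < k → k < n → h ^ k • y ≠ y := by
  obtain ⟨W₁, hW₁, hW₁H, hW₁U⟩ := hU H hH
  obtain ⟨W₂, hW₂, hW₂W₁, hW₂U⟩ := hU W₁ hW₁
  obtain ⟨w, hw, ω, hwω⟩ := hne W₂ hW₂ (hW₂W₁.trans hW₁H)
  obtain ⟨U, hUm, hUfix⟩ := hc ω
  obtain ⟨g₁, hg₁⟩ := hW₂U (W₂ ⊓ U) (F.inf_mem hW₂ hUm) (inf_le_left.trans hW₂W₁)
  obtain ⟨g₀, hg₀⟩ := hW₁U R hR hRH
  -- the shift element `g ∈ W₁`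
  let g : H := ⟨g₁, hW₁H g₁.2⟩
  have hg_coe : (g : G) = g₁ := rfl
  -- conjugation by `g` maps `W₂` into `W₂ ⊓ U`
  have hconj : ∀ k : H, (k : G) ∈ W₂ → ((g⁻¹ * k * g : H) : G) ∈ W₂ ⊓ U := by
    intro k hk
    have := hg₁ k hk
    simpa [hg_coe] using this
  -- all forward translates of `ω` are fixed by `W₂`
  have hfixed : ∀ m : ℕ, ∀ k : H, (k : G) ∈ W₂ → k • (g ^ (m + 1) • ω) = g ^ (m + 1) • ω := by
    intro m
    induction m with
    | zero =>
      intro k hk
      have h1 := hUfix _ (hconj k hk).2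
      have e : k • (g ^ (0 + 1) • ω) = g • (g⁻¹ * k * g) • ω := by
        simp only [smul_smul, zero_add, pow_one]; congr 1; group
      rw [e, h1]
      simp
    | succ m ih =>
      intro k hk
      have h1 := ih _ (hconj k hk).1
      have e : k • (g ^ (m + 1 + 1) • ω) = g • (g⁻¹ * k * g) • (g ^ (m + 1) • ω) := by
        simp only [smul_smul]; congr 1; group
      rw [e, h1, smul_smul]
      congr 1
      rw [pow_succ' g (m + 1)]
  have hmoved : ∀ m : ℕ, g ^ (m + 1) • ω ≠ ω := by
    intro m hm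
    apply hwω
    have := hfixed m w hw
    rwa [hm] at this
  -- the sequence
  let s : ℕ → Ω := fun m => g ^ (m + 1) • ω
  have hs : Function.Injective s := by
    have key : ∀ a c : ℕ, s a ≠ s (a + c + 1) := by
      intro a c h
      apply hmoved c
      have e : s (a + c + 1) = g ^ (a + 1) • (g ^ (c + 1) • ω) := by
        show g ^ (a + c + 1 + 1) • ω = _
        rw [smul_smul, ← pow_add]
        congr 2
        ring
      have h2 : g ^ (a + 1) • (g ^ (c + 1) • ω) = g ^ (a + 1) • ω := by
        rw [← e]; exact h.symm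
      exact (MulAction.injective (g ^ (a + 1))) h2
    intro a b hab
    rcases Nat.lt_trichotomy a b with h | h | h
    · obtain ⟨c, rfl⟩ := Nat.exists_eq_add_of_lt h
      exact absurd hab (key a c)
    · exact h
    · obtain ⟨c, rfl⟩ := Nat.exists_eq_add_of_lt h
      exact absurd hab.symm (key b c)
  let S : SeqSet F H Ω := ⟨s, W₂, hW₂, fun k hk m => hfixed m k hk⟩
  let g₀H : H := g₀
  -- the element of `R` and the shifted sequence
  let h' : H := g₀H⁻¹ * g * g₀H
  have hh' : (h' : G) ∈ R := by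
    have := hg₀ (g : G) (g₁.2)
    simpa [h', g₀H] using this
  let t : SeqSet F H Ω := g₀H⁻¹ • S
  have ht_inj : Function.Injective t.1 := by
    intro a b hab
    apply hs
    exact MulAction.injective (g₀H⁻¹) hab
  have hshift : ∀ m i : ℕ, (h' ^ m • t).1 i = t.1 (m + i) := by
    intro m
    induction m with
    | zero =>
      intro i
      simp
    | succ m ih =>
      intro i
      have e1 : h' ^ (m + 1) • t = h' • (h' ^ m • t) := by
        rw [pow_succ', mul_smul]
      rw [e1, seq_smul_apply, ih]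
      show h' • (g₀H⁻¹ • s (m + i)) = g₀H⁻¹ • s (m + 1 + i)
      have e2 : s (m + 1 + i) = g • s (m + i) := by
        show g ^ (m + 1 + i + 1) • ω = g • (g ^ (m + i + 1) • ω)
        rw [smul_smul, ← pow_succ']
        congr 2
        ring
      rw [e2]
      simp only [smul_smul, h']
      congr 1
      group
  refine ⟨h', hh', seqMk F H Ω n t, ?_, ?_⟩
  · rw [← seqMk_smul]
    refine Quotient.sound ?_
    refine ⟨0, n, ?_, fun i => ?_⟩
    · exact (Nat.modEq_zero_iff_dvd.2 (dvd_refl n)).symm
    · rw [hshift, Nat.zero_add]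
  · intro k hk0 hkn
    rw [← seqMk_smul]
    intro heq
    obtain ⟨a, b, hab, hi⟩ := Quotient.exact heq
    have h0 := hi 0
    have h1 : (h' ^ k • t).1 (a + 0) = t.1 (k + (a + 0)) := hshift k (a + 0)
    rw [h1] at h0
    have h2 := ht_inj h0
    simp only [Nat.add_zero] at h2
    subst h2
    -- now `a ≡ k + a [MOD n]`
    have h3 : n ∣ k := by
      have h4 : a + 0 ≡ a + k [MOD n] := by
        simpa [Nat.add_comm] using hab
      have h5 := Nat.ModEq.add_left_cancel' a h4
      exact (Nat.modEq_zero_iff_dvd.1 h5.symm)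
    have := Nat.le_of_dvd hk0 h3
    omega

/-- Elements of an injective equivariant map respect powers. -/
theorem equiv_pow {H : Subgroup G} {K : Subgroup G} {X Y : Type u} [MulAction H X] [MulAction H Y]
    (j : Y → X) (hjeq : ∀ h : H, (h : G) ∈ K → ∀ y : Y, j (h • y) = h • j y)
    (h : H) (hh : (h : G) ∈ K) (m : ℕ) (y : Y) : j (h ^ m • y) = h ^ m • j y := by
  induction m with
  | zero => simp
  | succ m ih =>
    rw [pow_succ', mul_smul, hjeq h hh, ih, mul_smul]

/-- **PP implies that a set without `n`-cycles is well-orderable.** -/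
theorem trivial_of_noCycle {F : NormalFilter G} (hPP : PP F) {H : Subgroup G}
    (hH : H ∈ F.carrier) (Ω : Type u) [MulAction H Ω] (hc : Cont F H Ω) (n : ℕ) (hn : 2 ≤ n)
    (hcyc : ∀ (h : H) (ω : Ω), h ^ n • ω = ω → h • ω = ω) :
    ∃ K ∈ F.carrier, K ≤ H ∧ ∀ h : H, (h : G) ∈ K → ∀ ω : Ω, h • ω = ω := by
  by_contra hcon
  have hne : ∀ K ∈ F.carrier, K ≤ H → ∃ k : H, (k : G) ∈ K ∧ ∃ ω : Ω, k • ω ≠ ω := by
    intro K hK hKH
    by_contra hno
    apply hcon
    refine ⟨K, hK, hKH, fun h hh ω => ?_⟩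
    by_contra hω
    exact hno ⟨h, hh, ω, hω⟩
  obtain ⟨R, hR, hRH, j, hj, hjeq⟩ := hPP H hH (SeqSet F H Ω) (SeqQuot F H Ω n)
    (seq_cont F H Ω) (seqQuot_cont F H Ω n) (seqMk F H Ω n) (seqMk_surjective F H Ω n)
    (seqMk_smul F H Ω n)
  obtain ⟨h, hh, y, hy1, hy2⟩ := exists_cycle (universal_of_PP hPP) hH Ω hc hne n R hR hRH
  apply hy2 1 Nat.one_pos (by omega)
  rw [pow_one]
  have h1 : h ^ n • j y = j y := by
    rw [← equiv_pow j hjeq h hh, hy1]
  have h2 : h • j y = j y := by
    refine Subtype.ext (funext fun i => ?_)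
    exact hcyc h _ (congrArg (fun x : SeqSet F H Ω => x.1 i) h1)
  apply hj
  rw [hjeq h hh, h2]

/-- Order preserving elements have no proper cycles. -/
theorem orderPreserving_noCycle {X : Type*} [LinearOrder X] {M : Type*} [Monoid M] [MulAction M X]
    (h : M) (hmono : ∀ m : ℕ, ∀ a b : X, a < b → h ^ m • a < h ^ m • b) (n : ℕ) (hn : 1 ≤ n) (x : X)
    (hx : h ^ n • x = x) : h • x = x := by
  have hmono1 : ∀ a b : X, a < b → h • a < h • b := by
    intro a b hab
    simpa using hmono 1 a b hab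
  have up : ∀ a : X, a < h • a → ∀ m : ℕ, a < h ^ (m + 1) • a := by
    intro a ha m
    induction m with
    | zero => simpa using ha
    | succ m ih =>
      have := hmono (m + 1) a (h • a) ha
      have e : h ^ (m + 1) • h • a = h ^ (m + 1 + 1) • a := by
        rw [smul_smul, ← pow_succ]
      rw [e] at this
      exact ih.trans this
  have down : ∀ a : X, h • a < a → ∀ m : ℕ, h ^ (m + 1) • a < a := by
    intro a ha m
    induction m with
    | zero => simpa using ha
    | succ m ih =>
      have := hmono (m + 1) (h • a) a ha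
      have e : h ^ (m + 1) • h • a = h ^ (m + 1 + 1) • a := by
        rw [smul_smul, ← pow_succ]
      rw [e] at this
      exact this.trans ih
  obtain ⟨m, rfl⟩ : ∃ m, n = m + 1 := ⟨n - 1, by omega⟩
  rcases lt_trichotomy x (h • x) with h1 | h1 | h1
  · have := up x h1 m
    rw [hx] at this
    exact absurd this (lt_irrefl _)
  · exact h1.symm
  · have := down x h1 m
    rw [hx] at this
    exact absurd this (lt_irrefl _)

end Vale.Agent.Lib.P323
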